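import Vale.Agent.P333.Ex.Words
import Vale.Agent.P333.M.Open
import Vale.Agent.P333.M.Prog

/-!
P333: the explicit algorithm, as a plain program on lists of natural numbers (words are lists of
letters, letters are natural numbers).

1. Throw away the empty word and the words that are factors of other words (`clean`).
2. Compute all overlaps (`table`), and an assignment of maximum total overlap by an auction
   (`cover`): a minimum cycle cover. Open every cycle at its smallest overlap, and throw away
   the opened cycles that are factors of others (`openedOf`).
3. Compute the overlaps of these words and an order of them of large total overlap (`M.atsp`), and
   merge the words in this order (`finish`).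
-/

namespace Vale.Agent.P333.Ex

open Vale.Agent.P333

/-- the words that matter: no empty word, no word that is a factor of another one -/
def clean (X : List (List ℕ)) : List (List ℕ) := reduce (X.filter fun x => !x.isEmpty)

/-- the length of a longest word -/
def maxLen (X : List (List ℕ)) : ℕ := X.foldl (fun m x => max m x.length) 0

/-- a cycle cover of maximum total overlap; `M` is the table of the overlaps -/
def cover (S M : List (List ℕ)) : List ℕ := Auction.assign S.length (maxLen S) (look M)

/-- the opened cycles, without those that are factors of others -/
def openedOf (S M : List (List ℕ)) : List (List ℕ) :=
  reduce (Open.opened S.length (fun i => S.getD i []) (look M) fun i => (cover S M).getD i 0)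

/-- the words of `W`, merged in the order found by `M.atsp`; `M'` is the table of the overlaps -/
def finish (W M' : List (List ℕ)) : List ℕ :=
  Open.merge (fun i => W.getD i []) (look M') (M.atsp W.length (maxLen W) (look M'))

/-- the second half of the algorithm -/
def alg2 (W : List (List ℕ)) : List ℕ := finish W (table W)

/-- the first half of the algorithm, for a family without superfluous words -/
def alg1 (S : List (List ℕ)) : List ℕ := alg2 (openedOf S (table S))

/-- the algorithm -/
def alg (X : List (List ℕ)) : List ℕ := alg1 (clean X)

end Vale.Agent.P333.Ex
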