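import Vale.Agent.P333.Ex.Words
import Vale.Agent.P333.ST.Defs

/-!
P333, row X1: the overlap computed by the program is the longest proper overlap.
-/

namespace Vale.Agent.P333.Ex

open Vale.Agent.P333.ST

/-- what the search of `ovl` returns -/
theorem find_greatest (Q : ℕ → Bool) (n : ℕ) :
    ((∃ k < n, Q k = true) →
      ∃ k < n, Q k = true ∧ ((List.range n).reverse.find? Q).getD 0 = k ∧
        ∀ j < n, Q j = true → j ≤ k) ∧
    ((¬ ∃ k < n, Q k = true) → ((List.range n).reverse.find? Q).getD 0 = 0) := by
  induction n with
  | zero => simp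
  | succ n ih =>
    rw [List.range_succ, List.reverse_append, List.reverse_singleton, List.singleton_append,
      List.find?_cons]
    cases hQ : Q n with
    | true =>
      refine ⟨fun _ => ⟨n, by omega, hQ, rfl, fun j hj _ => by omega⟩, fun h => ?_⟩
      exact absurd ⟨n, by omega, hQ⟩ h
    | false =>
      have hiff : (∃ k < n + 1, Q k = true) ↔ ∃ k < n, Q k = true := by
        constructor
        · rintro ⟨k, hk, hq⟩
          refine ⟨k, ?_, hq⟩
          rcases Nat.lt_or_ge k n with h | h
          · exact h
          · have : k = n := by omega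
            subst this
            rw [hQ] at hq
            exact absurd hq (by simp)
        · rintro ⟨k, hk, hq⟩
          exact ⟨k, by omega, hq⟩
      rw [hiff]
      refine ⟨fun h => ?_, ih.2⟩
      obtain ⟨k, hk, hq, h1, h2⟩ := ih.1 h
      refine ⟨k, by omega, hq, h1, fun j hj hqj => ?_⟩
      rcases Nat.lt_or_ge j n with h | h
      · exact h2 j h hqj
      · have : j = n := by omega
        subst this
        rw [hQ] at hqj
        exact absurd hqj (by simp)

theorem test_iff (s t : List ℕ) (k : ℕ) (hk : k < s.length) :
    (decide (k + 1 ≤ t.length) && decide (s.drop (s.length - k) <+: t)) = true ↔ IsOv s t k := by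
  rw [Bool.and_eq_true, decide_eq_true_eq, decide_eq_true_eq]
  unfold IsOv
  constructor
  · rintro ⟨h1, h2⟩
    refine ⟨hk, h1, ?_⟩
    have h3 := List.prefix_iff_eq_take.1 h2
    rw [h3]
    congr 1
    rw [List.length_drop]
    omega
  · rintro ⟨h1, h2, h3⟩
    refine ⟨h2, ?_⟩
    rw [← h3]
    exact List.take_prefix _ _

/-- the program computes the longest proper overlap -/
theorem ovl_eq (s t : List ℕ) : ovl s t = ov s t := by
  have h := find_greatest
    (fun k => decide (k + 1 ≤ t.length) && decide (s.drop (s.length - k) <+: t)) s.length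
  by_cases hex : ∃ k < s.length,
      (decide (k + 1 ≤ t.length) && decide (s.drop (s.length - k) <+: t)) = true
  · obtain ⟨k, hk, hq, h1, h2⟩ := h.1 hex
    have h3 : ovl s t = k := h1
    rw [h3]
    have h4 : IsOv s t k := (test_iff s t k hk).1 hq
    refine le_antisymm (Nat.le_findGreatest hk.le h4) ?_
    have h5 : IsOv s t (ov s t) := Nat.findGreatest_spec hk.le h4
    exact h2 _ h5.1 ((test_iff s t _ h5.1).2 h5)
  · have h3 : ovl s t = 0 := h.2 hex
    rw [h3]
    symm
    by_contra hne
    have h5 : IsOv s t (ov s t) := Nat.findGreatest_of_ne_zero (P := IsOv s t) rfl hne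
    exact hex ⟨_, h5.1, (test_iff s t _ h5.1).2 h5⟩

theorem ovl_nil_left (t : List ℕ) : ovl [] t = 0 := by
  have := ovl_le [] t
  simpa using this

theorem ovl_nil_right (s : List ℕ) : ovl s [] = 0 := by
  rw [ovl_eq]
  by_contra hne
  have h5 : IsOv s [] (ov s []) := Nat.findGreatest_of_ne_zero (P := IsOv s []) rfl hne
  exact absurd h5.2.1 (by simp)

/-- the entries of the table, also outside of its range -/
theorem look_table' (W : List (List ℕ)) (i j : ℕ) :
    look (table W) i j = ovl (W.getD i []) (W.getD j []) := by
  by_cases hi : i < W.length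
  · by_cases hj : j < W.length
    · rw [look_table W hi hj, List.getD_eq_getElem _ _ hi, List.getD_eq_getElem _ _ hj]
    · rw [List.getD_eq_default W [] (by omega : W.length ≤ j), ovl_nil_right]
      unfold look
      refine List.getD_eq_default _ _ ?_
      have h : ((table W).getD i []) ∈ table W := by
        rw [List.getD_eq_getElem _ _ (by rw [table_length]; exact hi)]
        exact List.getElem_mem _
      exact (table_row W _ h).trans (by omega)
  · rw [List.getD_eq_default W [] (by omega : W.length ≤ i), ovl_nil_left]
    unfold look
    rw [List.getD_eq_default (table W) [] (by rw [table_length]; omega)]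
    simp

/-- the table as a function -/
theorem look_table_fun (W : List (List ℕ)) :
    look (table W) = fun i j => ov (W.getD i []) (W.getD j []) := by
  funext i j
  rw [look_table', ovl_eq]

end Vale.Agent.P333.Ex
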