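import Vale.Agent.P333.M.Open
import Vale.Agent.P333.ST.Lap
import Vale.Agent.P333.ST.Basics

/-!
P333, row X2: a common superstring of a factor-free family gives an order of the family whose
merged word is not longer.
-/

namespace Vale.Agent.P333.Ex

open Vale.Agent.P333.ST Vale.Agent.P333.Open

/-- summing along a list of positions -/
theorem chain_sum (L : ℕ) (len p : ℕ → ℕ) (o : ℕ → ℕ → ℕ) (i : ℕ) (l : List ℕ)
    (hend : ∀ j ∈ i :: l, p j + len j ≤ L)
    (hpair : (i :: l).Pairwise (fun i j => len i + p i ≤ p j + o i j)) :
    ((i :: l).map len).sum + p i ≤ L + links o (i :: l) := by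
  induction l generalizing i with
  | nil =>
    have := hend i (by simp)
    simp [links]
    omega
  | cons j l ih =>
    have h1 := ih j (fun k hk => hend k (List.mem_cons_of_mem _ hk)) (List.pairwise_cons.1 hpair).2
    have h2 := (List.pairwise_cons.1 hpair).1 j (by simp)
    rw [List.map_cons, List.sum_cons, links]
    omega

variable {α : Type*} [DecidableEq α]

theorem ov_le_right (s t : List α) : ov s t ≤ t.length := by
  by_cases h : ov s t = 0
  · omega
  · have := Nat.findGreatest_of_ne_zero (P := IsOv s t) (n := s.length) rfl h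
    exact this.2.1.le

theorem ov_le_left (s t : List α) : ov s t ≤ s.length := Nat.findGreatest_le _

/-- two occurrences, the first one starting before the second one -/
theorem le_ov_of_pos {H s t : List α} {p q : ℕ} (hs : s <+: H.drop p) (ht : t <+: H.drop q)
    (hpq : p ≤ q) (hst : ¬ s <:+: t) (hts : ¬ t <:+: s) :
    s.length + p ≤ q + ov s t := by
  by_cases h : p + s.length ≤ q
  · omega
  · have h1 : p + s.length < q + t.length := by
      by_contra hcon
      exact hts (infix_of_pos hs ht hpq (by omega))
    have h2 : p < q := by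
      rcases Nat.lt_or_ge p q with h2 | h2
      · exact h2
      · exact absurd (infix_of_pos ht hs h2 (by omega)) hst
    have h3 := overlap_of_pos hs ht hpq (by omega) h1.le
    have h4 : IsOv s t (p + s.length - q) := by
      refine ⟨by omega, by omega, ?_⟩
      have h5 := List.suffix_iff_eq_drop.1 h3
      rw [h5]
      congr 1
      rw [List.length_take]
      omega
    have h6 := le_ov h4
    omega

/-- **row X2** -/
theorem exists_order (n : ℕ) (s : ℕ → List α)
    (hfree : ∀ i < n, ∀ j < n, s i <:+: s j → i = j) (H : List α) (hH : ∀ i < n, s i <:+: H) :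
    ∃ l : List ℕ, l.Perm (List.range n) ∧
      ∑ i ∈ Finset.range n, (s i).length ≤ H.length + links (fun i j => ov (s i) (s j)) l := by
  classical
  have hpos : ∀ i, ∃ p, i < n → (s i <+: H.drop p ∧ p + (s i).length ≤ H.length) := by
    intro i
    by_cases hi : i < n
    · obtain ⟨a, b, hab⟩ := hH i hi
      refine ⟨a.length, fun _ => ⟨?_, ?_⟩⟩
      · rw [← hab, List.append_assoc, List.drop_left]
        exact List.prefix_append _ _
      · rw [← hab]
        simp only [List.length_append]
        omega
    · exact ⟨0, fun h => absurd h hi⟩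
  choose p hp using hpos
  let l := (List.range n).insertionSort (fun i j => p i ≤ p j)
  have hl : l.Perm (List.range n) := List.perm_insertionSort _ _
  have : Std.Total (fun i j : ℕ => p i ≤ p j) := ⟨fun i j => le_total _ _⟩
  have : IsTrans ℕ (fun i j : ℕ => p i ≤ p j) := ⟨fun i j k h1 h2 => le_trans h1 h2⟩
  have hsort : l.Pairwise (fun i j => p i ≤ p j) := List.pairwise_insertionSort _ _
  have hnd : l.Nodup := hl.nodup_iff.2 List.nodup_range
  have hmem : ∀ i ∈ l, i < n := fun i hi => List.mem_range.1 (hl.mem_iff.1 hi)
  refine ⟨l, hl, ?_⟩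
  have hsum : ∑ i ∈ Finset.range n, (s i).length = (l.map fun i => (s i).length).sum := by
    rw [(hl.map _).sum_eq]
    rfl
  rw [hsum]
  have hpair : l.Pairwise
      (fun i j => (s i).length + p i ≤ p j + ov (s i) (s j)) := by
    have h2 := List.Pairwise.and hsort hnd
    refine List.Pairwise.imp_of_mem ?_ h2
    intro i j hi hj hij
    refine le_ov_of_pos (hp i (hmem i hi)).1 (hp j (hmem j hj)).1 hij.1 ?_ ?_
    · intro h
      exact hij.2 (hfree i (hmem i hi) j (hmem j hj) h)
    · intro h
      exact hij.2 (hfree j (hmem j hj) i (hmem i hi) h).symm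
  generalize l = l at hpair hmem
  cases l with
  | nil => simp
  | cons i l =>
    have := chain_sum H.length (fun i => (s i).length) p (fun i j => ov (s i) (s j)) i l
      (fun j hj => (hp j (hmem j hj)).2) hpair
    omega

/-- The length of the merged word of an order. -/
theorem length_merge_order (n : ℕ) (s : ℕ → List α) (l : List ℕ) (hl : l.Perm (List.range n)) :
    (merge s (fun i j => ov (s i) (s j)) l).length + links (fun i j => ov (s i) (s j)) l
      = ∑ i ∈ Finset.range n, (s i).length := by
  rw [length_merge l (fun i j => ov_le_right _ _), (hl.map _).sum_eq]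
  rfl

/-- The merged word of an order is a common superstring. -/
theorem infix_merge_order (n : ℕ) (s : ℕ → List α) (l : List ℕ)
    (hl : l.Perm (List.range n)) :
    ∀ i < n, s i <:+: merge s (fun i j => ov (s i) (s j)) l := by
  intro i hi
  refine infix_merge l ?_ i (hl.mem_iff.2 (List.mem_range.2 hi))
  intro i j
  refine ⟨ov_le_left _ _, ov_le_right _ _, ?_⟩
  by_cases h : ov (s i) (s j) = 0
  · rw [h]; simp
  · exact (Nat.findGreatest_of_ne_zero (P := IsOv (s i) (s j)) (n := (s i).length) rfl h).2.2

/-- If the order `l₀` has at least the fraction `b / a` of the maximal total overlap, then its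
merged word has at least the fraction `b / a` of the maximal compression. -/
theorem merge_le (n : ℕ) (s : ℕ → List α)
    (hfree : ∀ i < n, ∀ j < n, s i <:+: s j → i = j) (a b : ℕ) (l₀ : List ℕ)
    (hl₀ : l₀.Perm (List.range n))
    (hab : ∀ l : List ℕ, l.Perm (List.range n) →
      b * links (fun i j => ov (s i) (s j)) l ≤ a * links (fun i j => ov (s i) (s j)) l₀)
    (H : List α) (hH : ∀ i < n, s i <:+: H) :
    b * (∑ i ∈ Finset.range n, (s i).length) +
        a * (merge s (fun i j => ov (s i) (s j)) l₀).length
      ≤ b * H.length + a * (∑ i ∈ Finset.range n, (s i).length) := by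
  obtain ⟨l, hl, hle⟩ := exists_order n s hfree H hH
  have h1 := hab l hl
  have h2 := length_merge_order n s l₀ hl₀
  have h3 := Nat.mul_le_mul_left b hle
  have h4 := congrArg (fun x => a * x) h2
  simp only [mul_add] at h3 h4
  omega

/-- The same over the reals, in the form of the hypothesis of the theorem with ratio `3 - δ`. -/
theorem merge_le_real (n : ℕ) (s : ℕ → List α)
    (hfree : ∀ i < n, ∀ j < n, s i <:+: s j → i = j) (a b : ℕ) (ha : 0 < a) (l₀ : List ℕ)
    (hl₀ : l₀.Perm (List.range n))
    (hab : ∀ l : List ℕ, l.Perm (List.range n) →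
      b * links (fun i j => ov (s i) (s j)) l ≤ a * links (fun i j => ov (s i) (s j)) l₀)
    (H : List α) (hH : ∀ i < n, s i <:+: H) :
    ((b : ℝ) / a) * ((∑ i ∈ Finset.range n, ((s i).length : ℝ)) - H.length) ≤
      (∑ i ∈ Finset.range n, ((s i).length : ℝ))
        - ((merge s (fun i j => ov (s i) (s j)) l₀).length : ℝ) := by
  have h := merge_le n s hfree a b l₀ hl₀ hab H hH
  have h' : (b : ℝ) * (∑ i ∈ Finset.range n, ((s i).length : ℝ)) +
        a * ((merge s (fun i j => ov (s i) (s j)) l₀).length : ℝ)
      ≤ b * (H.length : ℝ) + a * (∑ i ∈ Finset.range n, ((s i).length : ℝ)) := by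
    exact_mod_cast h
  have ha' : (0 : ℝ) < a := by exact_mod_cast ha
  rw [div_mul_eq_mul_div, div_le_iff₀ ha']
  linarith

end Vale.Agent.P333.Ex
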