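import Vale.Agent.P333.Ex.RatioAux
import Vale.Agent.P333.Ex.Order

/-!
P333, explicit algorithm, row F2: the final inequality `11 |G| ≤ 27 |T|`.
-/

namespace Vale.Agent.P333.Ex

open Vale.Agent.P333.ST Vale.Agent.P333.Open

variable {α : Type*} [DecidableEq α]

/-- `L` is a factor-free family without the empty word, `p` an assignment of maximum total overlap,
`W` a factor-free list of opened cycles that covers all opened cycles, `l` an order of `W` whose total
overlap is at least `6/11` times the maximum. Then the merge `G` of `l` is a common superstring of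
`L`, and `11 |G| ≤ 27 |T|` for every common superstring `T` of `L`. -/
theorem ratio_27_11 (L : List (List α)) (hL : L.Nodup) (h0 : [] ∉ L) (hfree : Free L.toFinset)
    (p : ℕ → ℕ) (hp : ∀ i < L.length, p i < L.length)
    (hinj : ∀ i < L.length, ∀ j < L.length, p i = p j → i = j)
    (hmax : ∀ τ : Equiv.Perm (Fin L.length),
      ∑ i : Fin L.length, ovs L i (τ i) ≤ ∑ i : Fin L.length, ovs L i (p i))
    (W : List (List α)) (hWn : W.Nodup)
    (hW1 : ∀ w ∈ W, w ∈ opened L.length (st L) (ovs L) p)
    (hW2 : ∀ x ∈ opened L.length (st L) (ovs L) p, ∃ y ∈ W, x <:+: y)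
    (hWf : ∀ x ∈ W, ∀ y ∈ W, x <:+: y → x = y)
    (l : List ℕ) (hl : l.Perm (List.range W.length))
    (hr : ∀ l' : List ℕ, l'.Nodup → (∀ i ∈ l', i < W.length) →
      6 * links (ovs W) l' ≤ 11 * links (ovs W) l) :
    (∀ x ∈ L, x <:+: merge (st W) (ovs W) l) ∧
      ∀ T : List α, (∀ x ∈ L, x <:+: T) → 11 * (merge (st W) (ovs W) l).length ≤ 27 * T.length :=
  ratio_aux h0 hfree hmax W hWn hW1 hW2 hWf l hl hr hL hp hinj
    (fun H hH _ hf => exists_order W.length (st W) hf H hH)

end Vale.Agent.P333.Ex
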