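import Vale.Agent.P333.Ex.Alg
import Vale.Agent.P333.Ex.Ratio
import Vale.Agent.P333.Ex.OvEq
import Vale.Agent.P333.M.LinksPw

/-!
P333, explicit algorithm, row X4: the output of `alg` is a common superstring, and
`11 |alg X| ≤ 27 |T|` for every common superstring `T`.
-/

namespace Vale.Agent.P333.Ex

open Vale.Agent.P333 Vale.Agent.P333.ST Vale.Agent.P333.Open

theorem foldl_max_ge (X : List (List ℕ)) (m : ℕ) :
    m ≤ X.foldl (fun m x => max m x.length) m ∧
      ∀ x ∈ X, x.length ≤ X.foldl (fun m x => max m x.length) m := by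
  induction X generalizing m with
  | nil => simp
  | cons y X ih =>
    rw [List.foldl_cons]
    obtain ⟨h1, h2⟩ := ih (max m y.length)
    refine ⟨(le_max_left _ _).trans h1, fun x hx => ?_⟩
    rcases List.mem_cons.1 hx with rfl | hx
    · exact (le_max_right _ _).trans h1
    · exact h2 x hx

theorem le_maxLen (X : List (List ℕ)) : ∀ x ∈ X, x.length ≤ maxLen X := (foldl_max_ge X 0).2

theorem look_le_maxLen (W : List (List ℕ)) (i j : ℕ) : look (table W) i j ≤ maxLen W :=
  look_table_le W (le_maxLen W) i j

theorem look_eq_ovs (W : List (List ℕ)) : look (table W) = ovs W := look_table_fun W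

/-- The algorithm on a factor-free family. -/
theorem alg1_spec (S : List (List ℕ)) (hn : S.Nodup) (h0 : [] ∉ S)
    (hf : ∀ x ∈ S, ∀ y ∈ S, x <:+: y → x = y) :
    (∀ x ∈ S, x <:+: alg1 S) ∧
      ∀ T : List ℕ, (∀ x ∈ S, x <:+: T) → 11 * (alg1 S).length ≤ 27 * T.length := by
  have hw := look_le_maxLen S
  have hval : ∀ i < S.length, (cover S (table S)).getD i 0 =
      Auction.auction S.length (maxLen S) (look (table S)) i :=
    fun i hi => Auction.assign_getD _ _ _ hi
  have hp : ∀ i < S.length, (cover S (table S)).getD i 0 < S.length := by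
    intro i hi
    rw [hval i hi]
    exact Auction.auction_lt hw hi
  have hinj : ∀ i < S.length, ∀ j < S.length,
      (cover S (table S)).getD i 0 = (cover S (table S)).getD j 0 → i = j := by
    intro i hi j hj h
    rw [hval i hi, hval j hj] at h
    exact Auction.auction_inj hw hi hj h
  have hmax : ∀ τ : Equiv.Perm (Fin S.length),
      ∑ i : Fin S.length, ovs S i (τ i) ≤
        ∑ i : Fin S.length, ovs S i ((cover S (table S)).getD i 0) := by
    intro τ
    have h := Auction.assign_max hw τ
    have e : look (table S) = ovs S := look_eq_ovs S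
    unfold cover
    rw [e] at h ⊢
    exact h
  have hop : Open.opened S.length (fun i => S.getD i []) (look (table S))
      (fun i => (cover S (table S)).getD i 0) =
      opened S.length (st S) (ovs S) (fun i => (cover S (table S)).getD i 0) := by
    rw [look_eq_ovs S]
    rfl
  have hfree : Free S.toFinset := by
    intro x hx y hy h
    exact hf x (List.mem_toFinset.1 hx) y (List.mem_toFinset.1 hy) h
  obtain ⟨W, hW⟩ : ∃ W, W = openedOf S (table S) := ⟨_, rfl⟩
  have hWd : W = reduce (opened S.length (st S) (ovs S)
      (fun i => (cover S (table S)).getD i 0)) := by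
    rw [hW, ← hop]
    rfl
  have halg : alg1 S = merge (st W) (ovs W) (M.atsp W.length (maxLen W) (look (table W))) := by
    unfold alg1 alg2 finish
    rw [← hW]
    rw [look_eq_ovs W]
    rfl
  rw [halg]
  have hwW := look_le_maxLen W
  refine ratio_27_11 S hn h0 hfree (fun i => (cover S (table S)).getD i 0) hp hinj hmax W
    ?_ ?_ ?_ ?_ _ (M.atsp_perm hwW) ?_
  · rw [hWd]; exact reduce_nodup _
  · rw [hWd]; exact reduce_subset _
  · rw [hWd]; exact reduce_covers _
  · rw [hWd]; exact reduce_free _
  · intro l' hl' hlt
    have h := M.atsp_links hwW l' hl' hlt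
    rw [look_eq_ovs W] at h ⊢
    exact h

theorem clean_subset (X : List (List ℕ)) : ∀ x ∈ clean X, x ∈ X ∧ x ≠ [] := by
  intro x hx
  have h := reduce_subset _ x hx
  rw [List.mem_filter] at h
  refine ⟨h.1, ?_⟩
  intro he
  rw [he] at h
  simp at h

/-- The output of the algorithm is a common superstring. -/
theorem alg_super (X : List (List ℕ)) : ∀ x ∈ X, x <:+: alg X := by
  intro x hx
  by_cases h : x = []
  · rw [h]; exact List.nil_infix
  · have hx' : x ∈ X.filter fun x => !x.isEmpty := by
      rw [List.mem_filter]
      refine ⟨hx, ?_⟩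
      simpa using h
    obtain ⟨y, hy, hxy⟩ := reduce_covers _ x hx'
    refine hxy.trans ?_
    exact (alg1_spec (clean X) (reduce_nodup _) (fun h0 => (clean_subset X _ h0).2 rfl)
      (reduce_free _)).1 y hy

/-- The output of the algorithm is at most `27/11` times longer than any common superstring. -/
theorem alg_ratio (X : List (List ℕ)) (T : List ℕ) (hT : ∀ x ∈ X, x <:+: T) :
    11 * (alg X).length ≤ 27 * T.length :=
  (alg1_spec (clean X) (reduce_nodup _) (fun h0 => (clean_subset X _ h0).2 rfl)
    (reduce_free _)).2 T (fun x hx => hT x (clean_subset X x hx).1)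

end Vale.Agent.P333.Ex
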