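import Vale.Agent.P333.Tick2
import Vale.Agent.P333.M.Open

/-!
P333, explicit algorithm: ticked versions of the programs of `M/Open.lean` (open the cycles of a
cycle cover, merge strings). The functions `p` (successor), `o` (overlap) and `s` (string) are
calls of ticked programs.

All running times are bounded in terms of one number `D` that bounds the number of strings, their
lengths, the values of the calls and their running times.
-/

namespace Vale.Agent.P333.Ex

open Vale.Agent.P333 Tick Open

/-- ticked `orb` -/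
def orbT (p : ℕ → Tick ℕ) : ℕ → ℕ → Tick (List ℕ)
  | 0, _ => pay 1 []
  | k + 1, i => (p i).bind fun j => (orbT p k j).bind fun r => pay 1 (i :: r)

/-- the test of `isLast`: is the weight `a` of the link of `c` smaller than the weight of the link
of `t`, or equal with `c ≤ t`? -/
def lessT (o : ℕ → ℕ → Tick ℕ) (p : ℕ → Tick ℕ) (c a t : ℕ) : Tick Bool :=
  (p t).bind fun q => (o t q).bind fun b => (cmpT b a).bind fun x => (eqNT a b).bind fun y =>
    (cmpT c t).bind fun z => pay 1 (!x || (y && z))

/-- ticked `isLast` -/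
def isLastT (n : ℕ) (o : ℕ → ℕ → Tick ℕ) (p : ℕ → Tick ℕ) (c : ℕ) : Tick Bool :=
  (orbT p n c).bind fun l => (p c).bind fun q => (o c q).bind fun a => allT (lessT o p c a) l

/-- ticked `lasts` -/
def lastsT (n : ℕ) (o : ℕ → ℕ → Tick ℕ) (p : ℕ → Tick ℕ) : Tick (List ℕ) :=
  (rangeUpT n).bind fun l => filterT (isLastT n o p) l

/-- ticked `walkTo` -/
def walkToT (p : ℕ → Tick ℕ) (c : ℕ) : ℕ → ℕ → Tick (List ℕ)
  | 0, _ => pay 1 []
  | k + 1, i => (eqNT i c).bind fun b =>
      bif b then pay 1 [i] else
        (p i).bind fun j => (walkToT p c k j).bind fun r => pay 1 (i :: r)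

/-- ticked `cycFrom` -/
def cycFromT (n : ℕ) (p : ℕ → Tick ℕ) (c : ℕ) : Tick (List ℕ) :=
  (p c).bind fun i => walkToT p c n i

/-- ticked `mergeFrom` -/
def mergeFromT (s : ℕ → Tick (List ℕ)) (o : ℕ → ℕ → Tick ℕ) :
    List ℕ → ℕ → List ℕ → Tick (List ℕ)
  | acc, _, [] => pay 1 acc
  | acc, i, j :: l => (s j).bind fun w => (o i j).bind fun k => (dropT k w).bind fun d =>
      (appendT acc d).bind fun acc' => (mergeFromT s o acc' j l).bind (pay 1)

/-- ticked `merge` -/
def mergeT (s : ℕ → Tick (List ℕ)) (o : ℕ → ℕ → Tick ℕ) : List ℕ → Tick (List ℕ)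
  | [] => pay 1 []
  | i :: l => (s i).bind fun w => mergeFromT s o w i l

/-- ticked `opened` -/
def openedT (n : ℕ) (s : ℕ → Tick (List ℕ)) (o : ℕ → ℕ → Tick ℕ) (p : ℕ → Tick ℕ) :
    Tick (List (List ℕ)) :=
  (lastsT n o p).bind fun l => mapT (fun c => (cycFromT n p c).bind fun w => mergeT s o w) l

/-! ### values -/

section Val

variable (n : ℕ) (s : ℕ → Tick (List ℕ)) (o : ℕ → ℕ → Tick ℕ) (p : ℕ → Tick ℕ)

theorem orbT_val (k i : ℕ) : (orbT p k i).val = orb (fun i => (p i).val) k i := by
  induction k generalizing i with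
  | zero => simp [orbT, orb]
  | succ k ih => simp [orbT, orb, ih]

theorem lessT_val (c a t : ℕ) : (lessT o p c a t).val =
    (decide (a < (o t (p t).val).val) ||
      (decide (a = (o t (p t).val).val) && decide (c ≤ t))) := by
  unfold lessT
  simp only [bind_val', cmpT_val, eqNT_val, pay_val]
  congr 1
  rw [← decide_not]
  simp only [not_le]

theorem isLastT_val (c : ℕ) :
    (isLastT n o p c).val = isLast n (fun i j => (o i j).val) (fun i => (p i).val) c := by
  unfold isLastT isLast
  simp only [bind_val', allT_val, orbT_val, lessT_val]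

theorem lastsT_val :
    (lastsT n o p).val = lasts n (fun i j => (o i j).val) (fun i => (p i).val) := by
  unfold lastsT lasts
  simp only [bind_val', filterT_val, rangeUpT_val, isLastT_val]

theorem walkToT_val (c k i : ℕ) :
    (walkToT p c k i).val = walkTo (fun i => (p i).val) c k i := by
  induction k generalizing i with
  | zero => simp [walkToT, walkTo]
  | succ k ih =>
    unfold walkToT walkTo
    by_cases h : i = c
    · simp [h]
    · simp [h, ih]

theorem cycFromT_val (c : ℕ) :
    (cycFromT n p c).val = cycFrom n (fun i => (p i).val) c := by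
  unfold cycFromT cycFrom
  simp only [bind_val', walkToT_val]

theorem mergeFromT_val (acc : List ℕ) (i : ℕ) (l : List ℕ) :
    (mergeFromT s o acc i l).val =
      mergeFrom (fun i => (s i).val) (fun i j => (o i j).val) acc i l := by
  induction l generalizing acc i with
  | nil => simp [mergeFromT, mergeFrom]
  | cons j l ih => simp [mergeFromT, mergeFrom, ih]

theorem mergeT_val (l : List ℕ) :
    (mergeT s o l).val = merge (fun i => (s i).val) (fun i j => (o i j).val) l := by
  cases l with
  | nil => simp [mergeT, merge]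
  | cons i l => simp [mergeT, merge, mergeFromT_val]

theorem openedT_val :
    (openedT n s o p).val =
      opened n (fun i => (s i).val) (fun i j => (o i j).val) (fun i => (p i).val) := by
  unfold openedT opened
  simp only [bind_val', mapT_val, lastsT_val, cycFromT_val, mergeT_val]

end Val

/-! ### running times -/

section Time

variable {n : ℕ} {s : ℕ → Tick (List ℕ)} {o : ℕ → ℕ → Tick ℕ} {p : ℕ → Tick ℕ} {D : ℕ}

/-- `orbT` makes at most `k * (D + 1) + 1` steps -/
theorem orbT_time (hp : ∀ i, (p i).time ≤ D) (k i : ℕ) :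
    (orbT p k i).time ≤ k * (D + 1) + 1 := by
  induction k generalizing i with
  | zero => simp [orbT]
  | succ k ih =>
    simp only [orbT, bind_time', pay_time]
    have h1 := hp i
    have h2 := ih (p i).val
    have h3 : (k + 1) * (D + 1) + 1 = k * (D + 1) + 1 + (D + 1) := by ring
    rw [h3]
    omega

theorem orb_mem_le {q : ℕ → ℕ} (hq : ∀ i, q i ≤ D) (k i : ℕ) (hi : i ≤ D) :
    ∀ t ∈ orb q k i, t ≤ D := by
  induction k generalizing i with
  | zero => simp [orb]
  | succ k ih =>
    intro t ht
    rw [orb, List.mem_cons] at ht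
    rcases ht with rfl | ht
    · exact hi
    · exact ih _ (hq i) t ht

theorem lessT_time (hp : ∀ i, (p i).time ≤ D) (ho : ∀ i j, (o i j).time ≤ D)
    (hov : ∀ i j, (o i j).val ≤ D) {c a t : ℕ} (hc : c ≤ D) (ha : a ≤ D) (ht : t ≤ D) :
    (lessT o p c a t).time ≤ 8 * D + 4 := by
  unfold lessT
  simp only [bind_time', cmpT_time, eqNT_time, pay_time]
  have h1 := hp t
  have h2 := ho t (p t).val
  have h3 := hov t (p t).val
  omega

theorem isLastT_time (hn : n ≤ D) (hp : ∀ i, (p i).time ≤ D) (hpv : ∀ i, (p i).val ≤ D)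
    (ho : ∀ i j, (o i j).time ≤ D) (hov : ∀ i j, (o i j).val ≤ D) {c : ℕ} (hc : c ≤ D) :
    (isLastT n o p c).time ≤ 14 * (D + 1) ^ 2 := by
  unfold isLastT
  simp only [bind_time']
  have h1 := orbT_time hp n c
  have h2 := hp c
  have h3 := ho c (p c).val
  have h4 : (allT (lessT o p c (o c (p c).val).val) (orbT p n c).val).time ≤
      (orbT p n c).val.length * (8 * D + 4 + 1) + 1 := by
    refine allT_time fun t ht => lessT_time hp ho hov hc (hov _ _) ?_
    rw [orbT_val] at ht
    exact orb_mem_le hpv n c hc t ht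
  rw [orbT_val, length_orb] at h4
  rw [orbT_val]
  have h5 : n * (D + 1) ≤ D * (D + 1) := Nat.mul_le_mul_right _ hn
  have h6 : n * (8 * D + 4 + 1) ≤ D * (8 * D + 4 + 1) := Nat.mul_le_mul_right _ hn
  nlinarith

theorem lastsT_time (hn : n ≤ D) (hp : ∀ i, (p i).time ≤ D) (hpv : ∀ i, (p i).val ≤ D)
    (ho : ∀ i j, (o i j).time ≤ D) (hov : ∀ i j, (o i j).val ≤ D) :
    (lastsT n o p).time ≤ 17 * (D + 1) ^ 3 := by
  unfold lastsT
  simp only [bind_time', rangeUpT_time, rangeUpT_val]
  have h1 : (filterT (isLastT n o p) (List.range n)).time ≤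
      (List.range n).length * (14 * (D + 1) ^ 2 + 1) + 1 := by
    refine filterT_time fun c hc => isLastT_time hn hp hpv ho hov ?_
    rw [List.mem_range] at hc
    omega
  rw [List.length_range] at h1
  have h2 : n * (14 * (D + 1) ^ 2 + 1) ≤ D * (14 * (D + 1) ^ 2 + 1) := Nat.mul_le_mul_right _ hn
  have h3 : (D + 1) ^ 3 = D * (D + 1) ^ 2 + (D + 1) ^ 2 := by ring
  have h4 : (D + 1) ^ 2 = D * D + 2 * D + 1 := by ring
  nlinarith [Nat.zero_le (D * D)]

theorem walkToT_time (hp : ∀ i, (p i).time ≤ D) (hpv : ∀ i, (p i).val ≤ D) {c : ℕ} (hc : c ≤ D)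
    (k i : ℕ) (hi : i ≤ D) : (walkToT p c k i).time ≤ k * (3 * D + 2) + 1 := by
  induction k generalizing i with
  | zero => simp [walkToT]
  | succ k ih =>
    unfold walkToT
    simp only [bind_time', eqNT_time]
    have h1 := hp i
    have h2 := ih (p i).val (hpv i)
    have h3 : (k + 1) * (3 * D + 2) + 1 = k * (3 * D + 2) + 1 + (3 * D + 2) := by ring
    rw [h3]
    cases (eqNT i c).val
    · simp only [cond_false, bind_time', pay_time]
      omega
    · simp only [cond_true, pay_time]
      omega

theorem cycFromT_time (hn : n ≤ D) (hp : ∀ i, (p i).time ≤ D) (hpv : ∀ i, (p i).val ≤ D)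
    {c : ℕ} (hc : c ≤ D) : (cycFromT n p c).time ≤ 3 * (D + 1) ^ 2 := by
  unfold cycFromT
  simp only [bind_time']
  have h1 := hp c
  have h2 := walkToT_time hp hpv hc n (p c).val (hpv c)
  have h3 : n * (3 * D + 2) ≤ D * (3 * D + 2) := Nat.mul_le_mul_right _ hn
  nlinarith

theorem walkTo_length_le {q : ℕ → ℕ} {c : ℕ} (k i : ℕ) : (walkTo q c k i).length ≤ k := by
  induction k generalizing i with
  | zero => simp [walkTo]
  | succ k ih =>
    unfold walkTo
    split_ifs with h
    · simp
    · have := ih (q i)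
      simp only [List.length_cons]
      omega

theorem mergeFromT_time (hs : ∀ i, (s i).time ≤ D) (hsv : ∀ i, (s i).val.length ≤ D)
    (ho : ∀ i j, (o i j).time ≤ D) {K : ℕ} (acc : List ℕ) (i : ℕ) (l : List ℕ)
    (hK : acc.length + l.length * D ≤ K) :
    (mergeFromT s o acc i l).time ≤ l.length * (3 * D + K + 3) + 1 := by
  induction l generalizing acc i with
  | nil => simp [mergeFromT]
  | cons j l ih =>
    simp only [mergeFromT, bind_time', pay_time, appendT_time, appendT_val, dropT_val]
    have h1 := hs j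
    have h2 := hsv j
    have h3 := ho i j
    have h4 := dropT_time (o i j).val (s j).val
    have h7 : (l.length + 1) * D = l.length * D + D := by ring
    rw [List.length_cons, h7] at hK
    have h5 : (acc ++ (s j).val.drop (o i j).val).length + l.length * D ≤ K := by
      rw [List.length_append, List.length_drop]
      omega
    have h6 := ih (acc ++ (s j).val.drop (o i j).val) j h5
    rw [List.length_cons]
    have h8 : (l.length + 1) * (3 * D + K + 3) + 1 =
      l.length * (3 * D + K + 3) + 1 + (3 * D + K + 3) := by ring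
    rw [h8]
    omega

theorem mergeT_time (hs : ∀ i, (s i).time ≤ D) (hsv : ∀ i, (s i).val.length ≤ D)
    (ho : ∀ i j, (o i j).time ≤ D) {l : List ℕ} (hl : l.length ≤ D) :
    (mergeT s o l).time ≤ 6 * (D + 1) ^ 3 := by
  cases l with
  | nil =>
    simp only [mergeT, pay_time]
    have : 1 ≤ (D + 1) ^ 3 := Nat.one_le_pow _ _ (by omega)
    omega
  | cons i l =>
    simp only [mergeT, bind_time']
    rw [List.length_cons] at hl
    have h1 := hs i
    have h2 := hsv i
    have h3 : (s i).val.length + l.length * D ≤ D * D + D := by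
      have : l.length * D ≤ D * D := Nat.mul_le_mul_right _ (by omega)
      omega
    have h4 := mergeFromT_time hs hsv ho (s i).val i l h3
    have h5 : l.length * (3 * D + (D * D + D) + 3) ≤ D * (3 * D + (D * D + D) + 3) :=
      Nat.mul_le_mul_right _ (by omega)
    have h6 : 6 * (D + 1) ^ 3 = D * (3 * D + (D * D + D) + 3) + 5 * (D * D * D) + 14 * (D * D)
      + 15 * D + 6 := by ring
    rw [h6]
    omega

theorem lasts_length_le (n : ℕ) (o : ℕ → ℕ → ℕ) (p : ℕ → ℕ) : (lasts n o p).length ≤ n := by
  unfold lasts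
  have := List.length_filter_le (isLast n o p) (List.range n)
  simpa using this

theorem openedT_time (hn : n ≤ D) (hs : ∀ i, (s i).time ≤ D) (hsv : ∀ i, (s i).val.length ≤ D)
    (hp : ∀ i, (p i).time ≤ D) (hpv : ∀ i, (p i).val ≤ D)
    (ho : ∀ i j, (o i j).time ≤ D) (hov : ∀ i j, (o i j).val ≤ D) :
    (openedT n s o p).time ≤ 30 * (D + 1) ^ 4 := by
  unfold openedT
  simp only [bind_time']
  have h1 := lastsT_time hn hp hpv ho hov
  have h2 : (mapT (fun c => (cycFromT n p c).bind fun w => mergeT s o w)
      (lastsT n o p).val).time ≤ (lastsT n o p).val.length * (9 * (D + 1) ^ 3 + 1) + 1 := by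
    refine mapT_time fun c hc => ?_
    rw [lastsT_val] at hc
    unfold lasts at hc
    have hc2 := List.mem_range.1 (List.mem_filter.1 hc).1
    simp only [bind_time']
    have h3 := cycFromT_time hn hp hpv (c := c) (by omega)
    have h4 : (mergeT s o (cycFromT n p c).val).time ≤ 6 * (D + 1) ^ 3 := by
      refine mergeT_time hs hsv ho ?_
      rw [cycFromT_val]
      exact (walkTo_length_le _ _).trans hn
    have h5 : 3 * (D + 1) ^ 2 ≤ 3 * (D + 1) ^ 3 :=
      Nat.mul_le_mul_left _ (Nat.pow_le_pow_right (by omega) (by omega))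
    omega
  have h6 : (lastsT n o p).val.length ≤ D := by
    rw [lastsT_val]
    exact (lasts_length_le _ _ _).trans hn
  have h7 : (lastsT n o p).val.length * (9 * (D + 1) ^ 3 + 1) ≤ D * (9 * (D + 1) ^ 3 + 1) :=
    Nat.mul_le_mul_right _ h6
  have h8 : (D + 1) ^ 4 = D * (D + 1) ^ 3 + (D + 1) ^ 3 := by ring
  have h9 : D + 1 ≤ (D + 1) ^ 3 := Nat.le_self_pow (by omega) _
  nlinarith

/-! ### sizes of the outputs -/

theorem mergeFrom_length_le {s : ℕ → List ℕ} (o : ℕ → ℕ → ℕ) (hsv : ∀ i, (s i).length ≤ D)
    (acc : List ℕ) (i : ℕ) (l : List ℕ) :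
    (mergeFrom s o acc i l).length ≤ acc.length + l.length * D := by
  induction l generalizing acc i with
  | nil => simp [mergeFrom]
  | cons j l ih =>
    unfold mergeFrom
    have h1 := ih (acc ++ (s j).drop (o i j)) j
    have h2 := hsv j
    rw [List.length_append, List.length_drop] at h1
    rw [List.length_cons]
    have h7 : (l.length + 1) * D = l.length * D + D := by ring
    rw [h7]
    omega

theorem merge_length_le {s : ℕ → List ℕ} (o : ℕ → ℕ → ℕ) (hsv : ∀ i, (s i).length ≤ D)
    (l : List ℕ) : (merge s o l).length ≤ l.length * D := by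
  cases l with
  | nil => simp [merge]
  | cons i l =>
    rw [merge]
    have h1 := mergeFrom_length_le o hsv (s i) i l
    have h2 := hsv i
    rw [List.length_cons]
    have h7 : (l.length + 1) * D = l.length * D + D := by ring
    rw [h7]
    omega

theorem opened_length_le (n : ℕ) (s : ℕ → List ℕ) (o : ℕ → ℕ → ℕ) (p : ℕ → ℕ) :
    (opened n s o p).length ≤ n := by
  unfold opened
  rw [List.length_map]
  exact lasts_length_le n o p

theorem opened_mem_length_le {n : ℕ} {s : ℕ → List ℕ} {o : ℕ → ℕ → ℕ} {p : ℕ → ℕ}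
    (hsv : ∀ i, (s i).length ≤ D) {w : List ℕ} (hw : w ∈ opened n s o p) :
    w.length ≤ n * D := by
  unfold opened at hw
  obtain ⟨c, -, rfl⟩ := List.mem_map.1 hw
  refine (merge_length_le o hsv _).trans (Nat.mul_le_mul_right _ ?_)
  unfold cycFrom
  exact walkTo_length_le _ _

end Time

end Vale.Agent.P333.Ex
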