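import Vale.Agent.P333.M.OpenSpec
import Vale.Agent.P333.ST.Main

/-!
P333, explicit algorithm: the final inequality `11 |G| ≤ 27 |T|`, from a good order of the opened
cycles. The existence of the order given by a superstring is a hypothesis here (`hord`).
-/

namespace Vale.Agent.P333.Ex

open Vale.Agent.P333.ST Vale.Agent.P333.Open

set_option linter.unusedSectionVars false

variable {α : Type*} [DecidableEq α]

theorem ov_facts (s t : List α) : ov s t ≤ s.length ∧ ov s t ≤ t.length ∧
    t.take (ov s t) = s.drop (s.length - ov s t) := by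
  rcases Nat.eq_zero_or_pos (ov s t) with h | h
  · rw [h]
    simp
  · have h1 : IsOv s t (ov s t) :=
      Nat.findGreatest_of_ne_zero (P := IsOv s t) (n := s.length) rfl h.ne'
    exact ⟨h1.1.le, h1.2.1.le, h1.2.2⟩

theorem st_mem {L : List (List α)} {i : ℕ} (hi : i < L.length) : st L i ∈ L := by
  rw [st, List.getD_eq_getElem _ _ hi]
  exact List.getElem_mem _

theorem exists_st {L : List (List α)} {x : List α} (hx : x ∈ L) : ∃ i < L.length, st L i = x := by
  obtain ⟨i, hi, h⟩ := List.mem_iff_getElem.1 hx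
  exact ⟨i, hi, by rw [st, List.getD_eq_getElem _ _ hi, h]⟩

theorem st_inj {L : List (List α)} (hL : L.Nodup) {i j : ℕ} (hi : i < L.length)
    (hj : j < L.length) (h : st L i = st L j) : i = j := by
  rw [st, st, List.getD_eq_getElem _ _ hi, List.getD_eq_getElem _ _ hj] at h
  exact (List.Nodup.getElem_inj_iff hL).1 h

theorem sum_range_eq (f : ℕ → ℕ) (n : ℕ) : ((List.range n).map f).sum = ∑ i ∈ Finset.range n, f i :=
  rfl

theorem sum_st (W : List (List α)) :
    ∑ i ∈ Finset.range W.length, (st W i).length = (W.map List.length).sum := by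
  rw [← sum_range_eq]
  congr 1
  apply List.ext_getElem
  · simp
  · intro i h1 h2
    have hi : i < W.length := by simpa using h2
    simp [st, hi]

variable {L : List (List α)} {hL : L.Nodup} {p : ℕ → ℕ} {hp : ∀ i < L.length, p i < L.length}
  {hinj : ∀ i < L.length, ∀ j < L.length, p i = p j → i = j}

theorem sum_le_openWord (W : List (List α)) (hWn : W.Nodup)
    (hW1 : ∀ w ∈ W, w ∈ opened L.length (st L) (ovs L) p) :
    (W.map List.length).sum ≤
      ∑ b ∈ opn L hL p hp hinj, (openWord (sg L hL p hp hinj) b).length := by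
  have h1 : (W.map List.length).sum = ∑ w ∈ W.toFinset, w.length :=
    (List.sum_toFinset _ hWn).symm
  rw [h1]
  have h2 : ∀ w ∈ W.toFinset, ∃ b ∈ opn L hL p hp hinj, openWord (sg L hL p hp hinj) b = w := by
    intro w hw
    exact mem_opened_iff.1 (hW1 w (List.mem_toFinset.1 hw))
  rcases isEmpty_or_nonempty L.toFinset with he | he
  · have h3 : W.toFinset = ∅ := by
      rw [Finset.eq_empty_iff_forall_notMem]
      intro w hw
      obtain ⟨b, _⟩ := h2 w hw
      exact he.false b
    rw [h3]
    simp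
  choose! f hf1 hf2 using h2
  have h3 : Set.InjOn f (W.toFinset : Set (List α)) := by
    intro x hx y hy hxy
    rw [← hf2 x hx, ← hf2 y hy, hxy]
  calc ∑ w ∈ W.toFinset, w.length
      = ∑ w ∈ W.toFinset, (openWord (sg L hL p hp hinj) (f w)).length :=
        Finset.sum_congr rfl fun w hw => by rw [hf2 w hw]
    _ = ∑ b ∈ W.toFinset.image f, (openWord (sg L hL p hp hinj) b).length :=
        (Finset.sum_image (f := fun b => (openWord (sg L hL p hp hinj) b).length) h3).symm
    _ ≤ _ := Finset.sum_le_sum_of_subset (fun b hb => by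
        obtain ⟨w, hw, rfl⟩ := Finset.mem_image.1 hb
        exact hf1 w hw)

theorem ratio_aux (h0 : [] ∉ L) (hfree : Free L.toFinset)
    (hmax : ∀ τ : Equiv.Perm (Fin L.length),
      ∑ i : Fin L.length, ovs L i (τ i) ≤ ∑ i : Fin L.length, ovs L i (p i))
    (W : List (List α)) (hWn : W.Nodup)
    (hW1 : ∀ w ∈ W, w ∈ opened L.length (st L) (ovs L) p)
    (hW2 : ∀ x ∈ opened L.length (st L) (ovs L) p, ∃ y ∈ W, x <:+: y)
    (hWf : ∀ x ∈ W, ∀ y ∈ W, x <:+: y → x = y)
    (l : List ℕ) (hl : l.Perm (List.range W.length))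
    (hr : ∀ l' : List ℕ, l'.Nodup → (∀ i ∈ l', i < W.length) →
      6 * links (ovs W) l' ≤ 11 * links (ovs W) l)
    (hL : L.Nodup) (hp : ∀ i < L.length, p i < L.length)
    (hinj : ∀ i < L.length, ∀ j < L.length, p i = p j → i = j)
    (hord : ∀ H : List α, (∀ i < W.length, st W i <:+: H) →
      (∀ i < W.length, st W i ≠ []) →
      (∀ i < W.length, ∀ j < W.length, st W i <:+: st W j → i = j) →
      ∃ l' : List ℕ, l'.Perm (List.range W.length) ∧
        ∑ i ∈ Finset.range W.length, (st W i).length ≤ H.length + links (ovs W) l') :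
    (∀ x ∈ L, x <:+: merge (st W) (ovs W) l) ∧
      ∀ T : List α, (∀ x ∈ L, x <:+: T) → 11 * (merge (st W) (ovs W) l).length ≤ 27 * T.length := by
  have h0' : [] ∉ L.toFinset := by simpa using h0
  have hσ := isMin_sg (hL := hL) (hp := hp) (hinj := hinj) h0 hmax
  have hB := isOpening_opn (hL := hL) (hp := hp) (hinj := hinj)
  set σ := sg L hL p hp hinj with hσdef
  set B := opn L hL p hp hinj with hBdef
  have hmem : ∀ i ∈ l, i < W.length := fun i hi => List.mem_range.1 (hl.mem_iff.1 hi)
  refine ⟨?_, ?_⟩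
  · intro x hx
    have hx' : x ∈ L.toFinset := List.mem_toFinset.2 hx
    obtain ⟨b, hb, hbs⟩ := hB.1 ⟨x, hx'⟩
    have h1 : x <:+: openWord σ b := infix_openWord h0' σ b ⟨x, hx'⟩ hbs
    obtain ⟨y, hy, h2⟩ := hW2 _ (mem_opened_iff.2 ⟨b, hb, rfl⟩)
    obtain ⟨i, hi, rfl⟩ := exists_st hy
    have h3 : i ∈ l := hl.mem_iff.2 (List.mem_range.2 hi)
    exact h1.trans (h2.trans (infix_merge l (fun i j => ov_facts (st W i) (st W j)) i h3))
  · intro T hT
    have hT' : IsSuper L.toFinset T := fun s hs => hT s (List.mem_toFinset.1 hs)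
    obtain ⟨H, hH, hlen⟩ := opt_le hfree h0' σ B hB T hT'
    have h2 := openWord_sum_le hfree h0' σ hσ B hB T hT'
    have h3 := cost_le hfree h0' σ hσ T hT'
    have h4 : (W.map List.length).sum ≤ ∑ b ∈ B, (openWord σ b).length :=
      sum_le_openWord W hWn hW1
    have hst : ∀ i < W.length, ∃ b ∈ B, openWord σ b = st W i := fun i hi =>
      mem_opened_iff.1 (hW1 _ (st_mem hi))
    obtain ⟨l', hl', h5⟩ := hord H
      (fun i hi => by
        obtain ⟨b, hb, h⟩ := hst i hi
        rw [← h]
        exact hH b hb)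
      (fun i hi h => by
        obtain ⟨b, hb, h'⟩ := hst i hi
        have h6 : b.1 <:+: openWord σ b := infix_openWord h0' σ b b (Equiv.Perm.SameCycle.refl _ _)
        rw [h', h, List.infix_nil] at h6
        exact nonempty_of_mem h0' b h6)
      (fun i hi j hj h => st_inj hWn hi hj (hWf _ (st_mem hi) _ (st_mem hj) h))
    have h6 := hr l' (hl'.nodup_iff.2 List.nodup_range)
      (fun i hi => List.mem_range.1 (hl'.mem_iff.1 hi))
    have h7 := length_merge (s := st W) (o := ovs W) l (fun i j => (ov_facts _ _).2.1)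
    have h8 : (l.map fun j => (st W j).length).sum =
        ∑ i ∈ Finset.range W.length, (st W i).length := by
      rw [← sum_range_eq]
      exact (hl.map _).sum_eq
    rw [sum_st] at h5 h8
    omega

end Vale.Agent.P333.Ex
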