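import Vale.Agent.P333.Ex.RatioAux
import Vale.Agent.P333.Ex.Order
import Vale.Agent.P333.Ex.OvEq
import Vale.Agent.P333.Ex.Alg
import Vale.Agent.P333.M.AuctionL

/-!
P333: the algorithm with an arbitrary box for the maximum weight order (Max-ATSP).
-/

namespace Vale.Agent.P333.Ex

open Vale.Agent.P333 Vale.Agent.P333.ST Vale.Agent.P333.Open

/-- the words of `W`, merged in the order found by the box `A`; `M'` is the table of the
overlaps -/
def finishWith (A : ℕ → ℕ → (ℕ → ℕ → ℕ) → List ℕ) (W M' : List (List ℕ)) : List ℕ :=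
  merge (fun i => W.getD i []) (look M') (A W.length (maxLen W) (look M'))

/-- the second half of the algorithm, with the box `A` -/
def algWith2 (A : ℕ → ℕ → (ℕ → ℕ → ℕ) → List ℕ) (W : List (List ℕ)) : List ℕ :=
  finishWith A W (table W)

/-- the first half of the algorithm, for a family without superfluous words -/
def algWith1 (A : ℕ → ℕ → (ℕ → ℕ → ℕ) → List ℕ) (S : List (List ℕ)) : List ℕ :=
  algWith2 A (openedOf S (table S))

/-- the algorithm, with the box `A`: `A n C w` is an order of the nodes `0, ..., n - 1`, where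
`w` are the weights and `C` is a bound for the weights -/
def algWith (A : ℕ → ℕ → (ℕ → ℕ → ℕ) → List ℕ) (X : List (List ℕ)) : List ℕ :=
  algWith1 A (clean X)

theorem alg_eq (X : List (List ℕ)) : alg X = algWith M.atsp X := rfl

theorem le_maxLen_aux (X : List (List ℕ)) (m : ℕ) :
    m ≤ X.foldl (fun m x => max m x.length) m ∧
      ∀ x ∈ X, x.length ≤ X.foldl (fun m x => max m x.length) m := by
  induction X generalizing m with
  | nil => simp
  | cons y X ih =>
    obtain ⟨h1, h2⟩ := ih (max m y.length)
    refine ⟨(le_max_left _ _).trans h1, ?_⟩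
    intro x hx
    rcases List.mem_cons.1 hx with rfl | hx
    · exact (le_max_right _ _).trans h1
    · exact h2 x hx

theorem le_maxLen (X : List (List ℕ)) : ∀ x ∈ X, x.length ≤ maxLen X := (le_maxLen_aux X 0).2

theorem look_le_maxLen (W : List (List ℕ)) (i j : ℕ) : look (table W) i j ≤ maxLen W :=
  look_table_le W (le_maxLen W) i j

/-- the inequality `|G| ≤ (3 - δ) |T|` -/
theorem ratio_real {α : Type*} [DecidableEq α] {L : List (List α)} {p : ℕ → ℕ}
    (δ : ℝ) (hδ0 : 0 ≤ δ) (hδ1 : δ ≤ 1)
    (h0 : [] ∉ L) (hfree : Free L.toFinset)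
    (hmax : ∀ τ : Equiv.Perm (Fin L.length),
      ∑ i : Fin L.length, ovs L i (τ i) ≤ ∑ i : Fin L.length, ovs L i (p i))
    (W : List (List α)) (hWn : W.Nodup)
    (hW1 : ∀ w ∈ W, w ∈ opened L.length (st L) (ovs L) p)
    (hW2 : ∀ x ∈ opened L.length (st L) (ovs L) p, ∃ y ∈ W, x <:+: y)
    (hWf : ∀ x ∈ W, ∀ y ∈ W, x <:+: y → x = y)
    (l : List ℕ) (hl : l.Perm (List.range W.length))
    (hr : ∀ l' : List ℕ, l'.Perm (List.range W.length) →
      δ * (links (ovs W) l' : ℝ) ≤ (links (ovs W) l : ℝ))
    (hL : L.Nodup) (hp : ∀ i < L.length, p i < L.length)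
    (hinj : ∀ i < L.length, ∀ j < L.length, p i = p j → i = j) :
    (∀ x ∈ L, x <:+: merge (st W) (ovs W) l) ∧
      ∀ T : List α, (∀ x ∈ L, x <:+: T) →
        ((merge (st W) (ovs W) l).length : ℝ) ≤ (3 - δ) * T.length := by
  have h0' : [] ∉ L.toFinset := by simpa using h0
  have hσ := isMin_sg (hL := hL) (hp := hp) (hinj := hinj) h0 hmax
  have hB := isOpening_opn (hL := hL) (hp := hp) (hinj := hinj)
  set σ := sg L hL p hp hinj with hσdef
  set B := opn L hL p hp hinj with hBdef
  refine ⟨?_, ?_⟩
  · intro x hx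
    have hx' : x ∈ L.toFinset := List.mem_toFinset.2 hx
    obtain ⟨b, hb, hbs⟩ := hB.1 ⟨x, hx'⟩
    have h1 : x <:+: openWord σ b := infix_openWord h0' σ b ⟨x, hx'⟩ hbs
    obtain ⟨y, hy, h2⟩ := hW2 _ (mem_opened_iff.2 ⟨b, hb, rfl⟩)
    obtain ⟨i, hi, rfl⟩ := exists_st hy
    have h3 : i ∈ l := hl.mem_iff.2 (List.mem_range.2 hi)
    exact h1.trans (h2.trans (infix_merge l (fun i j => ov_facts (st W i) (st W j)) i h3))
  · intro T hT
    have hT' : IsSuper L.toFinset T := fun s hs => hT s (List.mem_toFinset.1 hs)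
    obtain ⟨H, hH, hlen⟩ := opt_le hfree h0' σ B hB T hT'
    have h2 := openWord_sum_le hfree h0' σ hσ B hB T hT'
    have h3 := cost_le hfree h0' σ hσ T hT'
    have h4 : (W.map List.length).sum ≤ ∑ b ∈ B, (openWord σ b).length :=
      sum_le_openWord W hWn hW1
    have hst : ∀ i < W.length, ∃ b ∈ B, openWord σ b = st W i := fun i hi =>
      mem_opened_iff.1 (hW1 _ (st_mem hi))
    obtain ⟨l', hl', h5⟩ := exists_order W.length (st W)
      (fun i hi j hj h => st_inj hWn hi hj (hWf _ (st_mem hi) _ (st_mem hj) h)) H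
      (fun i hi => by
        obtain ⟨b, hb, h⟩ := hst i hi
        rw [← h]
        exact hH b hb)
    have h6 := hr l' hl'
    have h7 := length_merge (s := st W) (o := ovs W) l (fun i j => (ov_facts _ _).2.1)
    have h8 : (l.map fun j => (st W j).length).sum =
        ∑ i ∈ Finset.range W.length, (st W i).length := by
      rw [← sum_range_eq]
      exact (hl.map _).sum_eq
    rw [sum_st] at h5 h8
    have h5' : (links (ovs W) l' : ℝ) ≥ (W.map List.length).sum - H.length := by
      have : (W.map List.length).sum ≤ H.length + links (ovs W) l' := h5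
      have : ((W.map List.length).sum : ℝ) ≤ H.length + links (ovs W) l' := by exact_mod_cast this
      linarith
    have h7' : ((merge (st W) (ovs W) l).length : ℝ) + links (ovs W) l =
        (W.map List.length).sum := by
      have : (merge (st W) (ovs W) l).length + links (ovs W) l = (W.map List.length).sum := by
        omega
      exact_mod_cast this
    have h4' : ((W.map List.length).sum : ℝ) ≤ 3 * T.length := by
      have : (W.map List.length).sum ≤ 3 * T.length := by omega
      exact_mod_cast this
    have hH' : (H.length : ℝ) ≤ 2 * T.length := by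
      have : H.length ≤ 2 * T.length := by omega
      exact_mod_cast this
    have e1 := mul_le_mul_of_nonneg_left h5' hδ0
    have e2 := mul_le_mul_of_nonneg_left h4' (sub_nonneg.2 hδ1)
    have e3 := mul_le_mul_of_nonneg_left hH' hδ0
    nlinarith

/-- a superstring of the cleaned family is a superstring of the family -/
theorem clean_covers (X : List (List ℕ)) (T : List ℕ) (h : ∀ x ∈ clean X, x <:+: T) :
    ∀ x ∈ X, x <:+: T := by
  intro x hx
  by_cases hx0 : x = []
  · subst hx0
    exact List.nil_infix
  · have h1 : x ∈ X.filter fun x => !x.isEmpty := by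
      rw [List.mem_filter]
      exact ⟨hx, by simp [hx0]⟩
    obtain ⟨y, hy, h2⟩ := reduce_covers _ x h1
    exact h2.trans (h y hy)

theorem mem_of_mem_clean (X : List (List ℕ)) : ∀ x ∈ clean X, x ∈ X ∧ x ≠ [] := by
  intro x hx
  have h1 := reduce_subset _ x hx
  rw [List.mem_filter] at h1
  exact ⟨h1.1, by simpa using h1.2⟩

/-- **The reduction, values.** If the box `A` finds an order whose weight is at least `δ` times
the weight of every order, then `algWith A` is a `(3 - δ)`-approximation of the shortest common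
superstring. -/
theorem with_ratio (A : ℕ → ℕ → (ℕ → ℕ → ℕ) → List ℕ) (δ : ℝ) (hδ0 : 0 ≤ δ) (hδ1 : δ ≤ 1)
    (hperm : ∀ (n C : ℕ) (w : ℕ → ℕ → ℕ), (∀ i j, w i j ≤ C) →
      (A n C w).Perm (List.range n))
    (hA : ∀ (n C : ℕ) (w : ℕ → ℕ → ℕ), (∀ i j, w i j ≤ C) →
      ∀ l : List ℕ, l.Perm (List.range n) → δ * (links w l : ℝ) ≤ (links w (A n C w) : ℝ))
    (X : List (List ℕ)) :
    (∀ x ∈ X, x <:+: algWith A X) ∧
      ∀ T : List ℕ, (∀ x ∈ X, x <:+: T) → ((algWith A X).length : ℝ) ≤ (3 - δ) * T.length := by
  set L := clean X with hLdef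
  have hL : L.Nodup := reduce_nodup _
  have h0 : [] ∉ L := fun h => (mem_of_mem_clean X [] h).2 rfl
  have hfree : Free L.toFinset := by
    intro s hs t ht h
    exact reduce_free _ s (List.mem_toFinset.1 hs) t (List.mem_toFinset.1 ht) h
  set M := table L with hM
  have hw : ∀ i j, look M i j ≤ maxLen L := look_le_maxLen L
  set p : ℕ → ℕ := fun i => (cover L M).getD i 0 with hpdef
  have hlookL : look M = ovs L := by
    rw [hM, look_table_fun]
    rfl
  have hp : ∀ i < L.length, p i < L.length := by
    intro i hi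
    refine Auction.assign_lt hw (n := L.length) ?_
    show (cover L M).getD i 0 ∈ _
    rw [List.getD_eq_getElem _ _ (by rw [cover, Auction.assign_length]; exact hi)]
    exact List.getElem_mem _
  have hinj : ∀ i < L.length, ∀ j < L.length, p i = p j → i = j := by
    intro i hi j hj h
    have hn : (cover L M).Nodup := Auction.assign_nodup hw
    have h1 : i < (cover L M).length := by rw [cover, Auction.assign_length]; exact hi
    have h2 : j < (cover L M).length := by rw [cover, Auction.assign_length]; exact hj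
    have h3 : (cover L M).getD i 0 = (cover L M).getD j 0 := h
    rw [List.getD_eq_getElem _ _ h1, List.getD_eq_getElem _ _ h2] at h3
    exact (List.Nodup.getElem_inj_iff hn).1 h3
  have hmax : ∀ τ : Equiv.Perm (Fin L.length),
      ∑ i : Fin L.length, ovs L i (τ i) ≤ ∑ i : Fin L.length, ovs L i (p i) := by
    intro τ
    have h := Auction.assign_max (n := L.length) hw τ
    rw [← hlookL]
    exact h
  set W := openedOf L M with hWdef
  have hWo : W = reduce (opened L.length (st L) (ovs L) p) := by
    rw [hWdef, openedOf, ← hlookL]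
    rfl
  have hWn : W.Nodup := by rw [hWo]; exact reduce_nodup _
  have hW1 : ∀ w ∈ W, w ∈ opened L.length (st L) (ovs L) p := by
    rw [hWo]; exact reduce_subset _
  have hW2 : ∀ x ∈ opened L.length (st L) (ovs L) p, ∃ y ∈ W, x <:+: y := by
    rw [hWo]; exact reduce_covers _
  have hWf : ∀ x ∈ W, ∀ y ∈ W, x <:+: y → x = y := by
    rw [hWo]; exact reduce_free _
  have hlookW : look (table W) = ovs W := by
    rw [look_table_fun]
    rfl
  have hw' : ∀ i j, ovs W i j ≤ maxLen W := by
    intro i j
    rw [← hlookW]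
    exact look_le_maxLen W i j
  have heq : algWith A X = merge (st W) (ovs W) (A W.length (maxLen W) (ovs W)) := by
    rw [algWith, algWith1, algWith2, finishWith, ← hLdef, ← hM, ← hWdef, hlookW]
    rfl
  have hmain := ratio_real (L := L) (p := p) δ hδ0 hδ1 h0 hfree hmax W hWn hW1 hW2 hWf
    (A W.length (maxLen W) (ovs W)) (hperm _ _ _ hw') (fun l' hl' => hA _ _ _ hw' l' hl')
    hL hp hinj
  rw [heq]
  refine ⟨clean_covers X _ hmain.1, fun T hT => hmain.2 T fun x hx => hT x ?_⟩
  exact (mem_of_mem_clean X x hx).1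

end Vale.Agent.P333.Ex
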