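import Vale.Agent.P333.Ex.With
import Vale.Agent.P333.M.LinksPw

/-! P333: the explicit algorithm `alg` has ratio `27/11`. -/

namespace Vale.Agent.P333.Ex

open Vale.Agent.P333 Vale.Agent.P333.Open

theorem alg_ratio (X : List (List ℕ)) :
    (∀ x ∈ X, x <:+: alg X) ∧
      ∀ T : List ℕ, (∀ x ∈ X, x <:+: T) → 11 * (alg X).length ≤ 27 * T.length := by
  rw [alg_eq]
  have h := with_ratio M.atsp (6 / 11) (by norm_num) (by norm_num)
    (fun n C w hw => M.atsp_perm hw)
    (fun n C w hw l hl => by
      have h1 := M.atsp_links (n := n) hw l (hl.nodup_iff.2 List.nodup_range)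
        (fun x hx => List.mem_range.1 (hl.mem_iff.1 hx))
      have h2 : (6 : ℝ) * links w l ≤ 11 * links w (M.atsp n C w) := by exact_mod_cast h1
      linarith) X
  refine ⟨h.1, fun T hT => ?_⟩
  have h1 := h.2 T hT
  have h2 : (11 : ℝ) * (algWith M.atsp X).length ≤ 27 * T.length := by linarith
  exact_mod_cast h2

end Vale.Agent.P333.Ex
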