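import Vale.Agent.P333.Ex.With

/-! P333: a box with factor `2/3` gives the ratio `7/3`. -/

namespace Vale.Agent.P333.Ex

open Vale.Agent.P333 Vale.Agent.P333.Open

/-- If the box `A` always finds an order whose weight is at least `2/3` of the maximum, then
`algWith A` is a `7/3`-approximation. -/
theorem seven_thirds_of (A : ℕ → ℕ → (ℕ → ℕ → ℕ) → List ℕ)
    (hperm : ∀ (n C : ℕ) (w : ℕ → ℕ → ℕ), (∀ i j, w i j ≤ C) →
      (A n C w).Perm (List.range n))
    (hA : ∀ (n C : ℕ) (w : ℕ → ℕ → ℕ), (∀ i j, w i j ≤ C) →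
      ∀ l : List ℕ, l.Perm (List.range n) → 2 * links w l ≤ 3 * links w (A n C w))
    (X : List (List ℕ)) :
    (∀ x ∈ X, x <:+: algWith A X) ∧
      ∀ T : List ℕ, (∀ x ∈ X, x <:+: T) → 3 * (algWith A X).length ≤ 7 * T.length := by
  have h := with_ratio A (2 / 3) (by norm_num) (by norm_num) hperm
    (fun n C w hw l hl => by
      have h1 := hA n C w hw l hl
      have h2 : (2 : ℝ) * links w l ≤ 3 * links w (A n C w) := by exact_mod_cast h1
      linarith) X
  refine ⟨h.1, fun T hT => ?_⟩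
  have h1 := h.2 T hT
  have h2 : (3 : ℝ) * (algWith A X).length ≤ 7 * T.length := by linarith
  exact_mod_cast h2

end Vale.Agent.P333.Ex
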