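import Vale.Agent.P333.Tick2

/-!
P333, explicit algorithm: the part that works on words. Every program comes twice: the plain
function and the ticked program (suffix `T`) with the same value.
-/

namespace Vale.Agent.P333.Ex

open Vale.Agent.P333 Tick

/-- length of the longest proper overlap of `s` and `t` -/
def ovl (s t : List ℕ) : ℕ :=
  ((List.range s.length).reverse.find?
    (fun k => decide (k + 1 ≤ t.length) && decide (s.drop (s.length - k) <+: t))).getD 0

/-- factor-free subfamily -/
def reduce : List (List ℕ) → List (List ℕ)
  | [] => []
  | x :: l => if (reduce l).any (fun y => decide (x <:+: y)) then reduce l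
      else x :: (reduce l).filter (fun y => !decide (y <:+: x))

/-- table of the overlaps -/
def table (W : List (List ℕ)) : List (List ℕ) := W.map fun s => W.map fun t => ovl s t

/-- entry of a table -/
def look (M : List (List ℕ)) (i j : ℕ) : ℕ := (M.getD i []).getD j 0

/-- the superstring of the words with the numbers `l`, in this order, glued along the overlaps
given by the table `M` -/
def glue (W M : List (List ℕ)) : List ℕ → List ℕ
  | [] => []
  | [i] => W.getD i []
  | i :: j :: l => (W.getD i []).take ((W.getD i []).length - look M i j) ++ glue W M (j :: l)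

/-! ### ticked programs -/

/-- ticked `ovl` -/
def ovlT (s t : List ℕ) : Tick ℕ :=
  (lengthT s).bind fun m => (lengthT t).bind fun l => (rangeT m).bind fun ks =>
    (findT (fun k => (addT k 1).bind fun k1 => (cmpT k1 l).bind fun c =>
      bif c then (subT m k).bind fun d => (dropT d s).bind fun u => isPrefixT u t
      else pay 1 false) ks).bind fun r =>
    match r with
    | some k => pay 1 k
    | none => pay 1 0

/-- ticked `reduce` -/
def reduceT : List (List ℕ) → Tick (List (List ℕ))
  | [] => pay 1 []
  | x :: l => (reduceT l).bind fun r => (anyT (fun y => isInfixT x y) r).bind fun b =>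
      if b then pay 1 r else
        (filterT (fun y => (isInfixT y x).bind fun c => pay 1 (!c)) r).bind fun r' =>
          pay 1 (x :: r')

/-- ticked `table` -/
def tableT (W : List (List ℕ)) : Tick (List (List ℕ)) :=
  mapT (fun s => mapT (fun t => ovlT s t) W) W

/-- ticked `look` -/
def lookT (M : List (List ℕ)) (i j : ℕ) : Tick ℕ :=
  (getT M i []).bind fun r => getT r j 0

/-- ticked `glue` -/
def glueT (W M : List (List ℕ)) : List ℕ → Tick (List ℕ)
  | [] => pay 1 []
  | [i] => getT W i []
  | i :: j :: l => (glueT W M (j :: l)).bind fun g => (getT W i []).bind fun s =>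
      (lengthT s).bind fun m => (lookT M i j).bind fun o => (subT m o).bind fun d =>
        (takeT d s).bind fun u => appendT u g

/-! ### values -/

theorem rangeT_val (n : ℕ) : (rangeT n).val = (List.range n).reverse := by
  induction n with
  | zero => simp [rangeT]
  | succ n ih => simp [rangeT, ih, List.range_succ]

theorem ovlT_val (s t : List ℕ) : (ovlT s t).val = ovl s t := by
  unfold ovlT ovl
  simp only [bind_val', lengthT_val, rangeT_val, findT_val, addT_val, cmpT_val]
  have h : (fun k => (bif decide (k + 1 ≤ t.length) then
        (subT s.length k).bind fun d => (dropT d s).bind fun u => isPrefixT u t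
      else pay 1 false).val) =
      (fun k => decide (k + 1 ≤ t.length) && decide (s.drop (s.length - k) <+: t)) := by
    funext k
    by_cases hk : k + 1 ≤ t.length <;> simp [hk]
  rw [h]
  cases (List.find? (fun k => decide (k + 1 ≤ t.length) &&
    decide (s.drop (s.length - k) <+: t)) (List.range s.length).reverse) <;> simp

theorem reduceT_val (l : List (List ℕ)) : (reduceT l).val = reduce l := by
  induction l with
  | nil => simp [reduceT, reduce]
  | cons x l ih =>
    unfold reduceT reduce
    simp only [bind_val', ih, anyT_val, isInfixT_val]
    split_ifs with h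
    · simp
    · simp

theorem tableT_val (W : List (List ℕ)) : (tableT W).val = table W := by
  simp [tableT, table, ovlT_val]

@[simp] theorem lookT_val (M : List (List ℕ)) (i j : ℕ) : (lookT M i j).val = look M i j := by
  simp [lookT, look]

theorem glueT_val (W M : List (List ℕ)) (l : List ℕ) : (glueT W M l).val = glue W M l := by
  induction l with
  | nil => simp [glueT, glue]
  | cons i l ih =>
    cases l with
    | nil => simp [glueT, glue]
    | cons j l =>
      unfold glueT glue
      simp [ih]

/-! ### running times -/

theorem ovl_le (s t : List ℕ) : ovl s t ≤ s.length := by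
  unfold ovl
  cases h : (List.find? (fun k => decide (k + 1 ≤ t.length) &&
    decide (s.drop (s.length - k) <+: t)) (List.range s.length).reverse) with
  | none => simp
  | some k =>
    have h1 := List.mem_of_find?_eq_some h
    simp only [List.mem_reverse, List.mem_range] at h1
    simp only [Option.getD_some]
    omega

theorem ovlT_time (s t : List ℕ) {m : ℕ} (hs : s.length ≤ m) (ht : t.length ≤ m) :
    (ovlT s t).time ≤ 20 * (m + 1) ^ 2 := by
  unfold ovlT
  simp only [bind_time', lengthT_time, lengthT_val, rangeT_time]
  have h1 : (findT (fun k => (addT k 1).bind fun k1 => (cmpT k1 t.length).bind fun c =>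
      bif c then (subT s.length k).bind fun d => (dropT d s).bind fun u => isPrefixT u t
      else pay 1 false) (rangeT s.length).val).time ≤
      (rangeT s.length).val.length * ((8 * m + 8) + 1) + 1 := by
    refine findT_time fun k hk => ?_
    rw [mem_rangeT] at hk
    simp only [bind_time', addT_time, cmpT_time, addT_val, cmpT_val]
    have h2 : (bif decide (k + 1 ≤ t.length) then
        (subT s.length k).bind fun d => (dropT d s).bind fun u => isPrefixT u t
      else pay 1 false).time ≤ 4 * m + 4 := by
      cases decide (k + 1 ≤ t.length)
      · simp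
      · simp only [cond_true, bind_time', subT_time, subT_val, dropT_val]
        have h3 := dropT_time (s.length - k) s
        have h4 := isPrefixT_time (s.drop (s.length - k)) t
        rw [List.length_drop] at h4
        omega
    omega
  rw [rangeT_length] at h1
  have h5 : ∀ r : Option ℕ, (match r with
    | some k => pay 1 k
    | none => pay 1 0 : Tick ℕ).time = 1 := by
    intro r; cases r <;> rfl
  rw [h5]
  nlinarith

theorem reduce_length_le (l : List (List ℕ)) : (reduce l).length ≤ l.length := by
  induction l with
  | nil => simp [reduce]
  | cons x l ih =>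
    unfold reduce
    split_ifs
    · simp only [List.length_cons]; omega
    · simp only [List.length_cons]
      have := List.length_filter_le (fun y => !decide (y <:+: x)) (reduce l)
      omega

theorem reduce_subset (l : List (List ℕ)) : ∀ x ∈ reduce l, x ∈ l := by
  induction l with
  | nil => simp [reduce]
  | cons x l ih =>
    intro y hy
    unfold reduce at hy
    split_ifs at hy
    · exact List.mem_cons_of_mem _ (ih y hy)
    · rcases List.mem_cons.mp hy with rfl | hy
      · exact List.mem_cons_self
      · exact List.mem_cons_of_mem _ (ih y (List.mem_of_mem_filter hy))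

/-- every word is a factor of a word that is kept -/
theorem reduce_covers (l : List (List ℕ)) : ∀ x ∈ l, ∃ y ∈ reduce l, x <:+: y := by
  induction l with
  | nil => simp
  | cons x l ih =>
    intro z hz
    unfold reduce
    split_ifs with h
    · rcases List.mem_cons.mp hz with rfl | hz
      · rw [List.any_eq_true] at h
        obtain ⟨y, hy, h2⟩ := h
        exact ⟨y, hy, by simpa using h2⟩
      · exact ih z hz
    · rcases List.mem_cons.mp hz with rfl | hz
      · exact ⟨z, List.mem_cons_self, List.infix_refl z⟩
      · obtain ⟨y, hy, h2⟩ := ih z hz
        by_cases h3 : y <:+: x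
        · exact ⟨x, List.mem_cons_self, h2.trans h3⟩
        · exact ⟨y, List.mem_cons_of_mem _ (List.mem_filter.mpr ⟨hy, by simp [h3]⟩), h2⟩

/-- the words that are kept are pairwise incomparable -/
theorem reduce_pairwise (l : List (List ℕ)) :
    (reduce l).Pairwise fun x y => ¬ x <:+: y ∧ ¬ y <:+: x := by
  induction l with
  | nil => simp [reduce]
  | cons x l ih =>
    unfold reduce
    split_ifs with h
    · exact ih
    · rw [List.pairwise_cons]
      refine ⟨fun y hy => ?_, ih.filter _⟩
      rw [List.mem_filter] at hy
      refine ⟨fun h2 => h ?_, by simpa using hy.2⟩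
      rw [List.any_eq_true]
      exact ⟨y, hy.1, by simpa using h2⟩

theorem reduce_nodup (l : List (List ℕ)) : (reduce l).Nodup := by
  refine (reduce_pairwise l).imp fun {x y} h he => ?_
  subst he
  exact h.1 (List.infix_refl x)

theorem reduce_free (l : List (List ℕ)) : ∀ x ∈ reduce l, ∀ y ∈ reduce l, x <:+: y → x = y := by
  intro x hx y hy h
  by_contra hne
  have h1 := reduce_pairwise l
  rw [List.pairwise_iff_getElem] at h1
  obtain ⟨i, hi, rfl⟩ := List.mem_iff_getElem.mp hx
  obtain ⟨j, hj, rfl⟩ := List.mem_iff_getElem.mp hy
  rcases lt_trichotomy i j with h2 | h2 | h2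
  · exact (h1 i j hi hj h2).1 h
  · subst h2; exact hne rfl
  · exact (h1 j i hj hi h2).2 h

theorem reduceT_time (l : List (List ℕ)) {m : ℕ} (h : ∀ x ∈ l, x.length ≤ m) :
    (reduceT l).time ≤ 20 * (l.length + 1) ^ 2 * (m + 1) ^ 2 := by
  induction l with
  | nil =>
    simp only [reduceT, pay_time, List.length_nil, zero_add, one_pow, mul_one]
    nlinarith [Nat.zero_le m]
  | cons x l ih =>
    have hx := h x List.mem_cons_self
    have h2 := ih fun y hy => h y (List.mem_cons_of_mem _ hy)
    have hr : ∀ y ∈ reduce l, y.length ≤ m := fun y hy =>
      h y (List.mem_cons_of_mem _ (reduce_subset l y hy))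
    have hl := reduce_length_le l
    unfold reduceT
    simp only [bind_time', reduceT_val]
    have h3 : (anyT (fun y => isInfixT x y) (reduce l)).time ≤
        (reduce l).length * ((m + 2) * (m + 1) + 1) + 1 := by
      refine anyT_time fun y hy => ?_
      have h4 := isInfixT_time x y
      have h5 := hr y hy
      exact h4.trans (Nat.mul_le_mul (by omega) (by omega))
    have h4 : (if (anyT (fun y => isInfixT x y) (reduce l)).val = true then pay 1 (reduce l) else
        (filterT (fun y => (isInfixT y x).bind fun c => pay 1 (!c)) (reduce l)).bind fun r' =>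
          pay 1 (x :: r')).time ≤ (reduce l).length * (((m + 2) * (m + 1) + 1) + 1) + 1 + 1 := by
      split_ifs
      · simp only [pay_time]; omega
      · simp only [bind_time', pay_time]
        refine Nat.add_le_add_right ?_ 1
        refine filterT_time fun y hy => ?_
        simp only [bind_time', pay_time]
        refine Nat.add_le_add_right ?_ 1
        have h4 := isInfixT_time y x
        have h5 := hr y hy
        exact h4.trans (Nat.mul_le_mul (by omega) (by omega))
    have h6 : (reduce l).length * ((m + 2) * (m + 1) + 1) ≤
        l.length * ((m + 2) * (m + 1) + 1) := Nat.mul_le_mul_right _ hl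
    have h7 : (reduce l).length * (((m + 2) * (m + 1) + 1) + 1) ≤
        l.length * (((m + 2) * (m + 1) + 1) + 1) := Nat.mul_le_mul_right _ hl
    rw [List.length_cons]
    have h8 : 20 * (l.length + 1 + 1) ^ 2 * (m + 1) ^ 2 =
        20 * (l.length + 1) ^ 2 * (m + 1) ^ 2 + (40 * l.length + 60) * (m + 1) ^ 2 := by ring
    rw [h8]
    nlinarith [Nat.zero_le (l.length * m), Nat.zero_le (l.length * m ^ 2), Nat.zero_le (m ^ 2),
      Nat.zero_le m, Nat.zero_le l.length]

theorem tableT_time (W : List (List ℕ)) {m : ℕ} (h : ∀ x ∈ W, x.length ≤ m) :
    (tableT W).time ≤ 40 * (W.length + 1) ^ 2 * (m + 1) ^ 2 := by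
  unfold tableT
  have h1 : ∀ s ∈ W, (mapT (fun t => ovlT s t) W).time ≤
      W.length * (20 * (m + 1) ^ 2 + 1) + 1 := fun s hs =>
    mapT_time fun t ht => ovlT_time s t (h s hs) (h t ht)
  have h2 := mapT_time (f := fun s => mapT (fun t => ovlT s t) W) h1
  refine h2.trans ?_
  nlinarith [Nat.zero_le (W.length * m), Nat.zero_le (W.length * m ^ 2), Nat.zero_le (m ^ 2),
    Nat.zero_le m, Nat.zero_le W.length, Nat.zero_le (W.length ^ 2),
    Nat.zero_le (W.length ^ 2 * m), Nat.zero_le (W.length ^ 2 * m ^ 2)]

theorem lookT_time (M : List (List ℕ)) (i j : ℕ) {n : ℕ} (hM : M.length ≤ n)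
    (hr : ∀ r ∈ M, r.length ≤ n) : (lookT M i j).time ≤ 2 * n + 2 := by
  unfold lookT
  simp only [bind_time', getT_val]
  have h1 := getT_time M i []
  have h2 := getT_time (M.getD i []) j 0
  have h3 : (M.getD i []).length ≤ n := by
    rw [List.getD_eq_getElem?_getD]
    cases h : M[i]? with
    | none => simp
    | some r => exact hr r (List.mem_of_getElem? h)
  omega

theorem table_length (W : List (List ℕ)) : (table W).length = W.length := by simp [table]

theorem table_row (W : List (List ℕ)) : ∀ r ∈ table W, r.length ≤ W.length := by
  intro r hr
  unfold table at hr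
  rw [List.mem_map] at hr
  obtain ⟨s, -, rfl⟩ := hr
  simp

/-- the weights are the overlaps -/
theorem look_table (W : List (List ℕ)) {i j : ℕ} (hi : i < W.length) (hj : j < W.length) :
    look (table W) i j = ovl W[i] W[j] := by
  simp [look, table, hi, hj]

theorem look_table_le (W : List (List ℕ)) {m : ℕ} (h : ∀ x ∈ W, x.length ≤ m) (i j : ℕ) :
    look (table W) i j ≤ m := by
  unfold look table
  by_cases hi : i < W.length
  · by_cases hj : j < W.length
    · simp only [List.getD_eq_getElem?_getD, List.getElem?_map, hi, List.getElem?_eq_getElem,
        Option.map_some, Option.getD_some, hj]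
      exact (ovl_le _ _).trans (h _ (List.getElem_mem _))
    · simp [hi, hj]
  · simp [hi]

theorem getD_length_le (W : List (List ℕ)) {m : ℕ} (h : ∀ x ∈ W, x.length ≤ m) (i : ℕ) :
    (W.getD i []).length ≤ m := by
  rw [List.getD_eq_getElem?_getD]
  cases hc : W[i]? with
  | none => simp
  | some r => exact h r (List.mem_of_getElem? hc)

theorem glue_length_le (W M : List (List ℕ)) {m : ℕ} (h : ∀ x ∈ W, x.length ≤ m) (l : List ℕ) :
    (glue W M l).length ≤ l.length * m := by
  induction l with
  | nil => simp [glue]
  | cons i l ih =>
    cases l with
    | nil => simpa [glue] using getD_length_le W h i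
    | cons j l =>
      unfold glue
      rw [List.length_append, List.length_take, List.length_cons]
      have h1 := getD_length_le W h i
      have h2 : (l.length + 1 + 1) * m = (j :: l).length * m + m := by
        rw [List.length_cons]; ring
      rw [List.length_cons] at ih
      rw [List.length_cons, h2, List.length_cons]
      have := min_le_right ((W.getD i []).length - look M i j) (W.getD i []).length
      omega

theorem glueT_time (W M : List (List ℕ)) {m n c : ℕ} (h : ∀ x ∈ W, x.length ≤ m)
    (hW : W.length ≤ n) (hM : M.length ≤ n) (hr : ∀ r ∈ M, r.length ≤ n)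
    (hc : ∀ i j, look M i j ≤ c) (l : List ℕ) :
    (glueT W M l).time ≤ (l.length + 1) * (4 * m + c + 3 * n + 10) := by
  induction l with
  | nil => simp [glueT]
  | cons i l ih =>
    cases l with
    | nil =>
      simp only [glueT, List.length_cons, List.length_nil]
      have := getT_time W i []
      nlinarith
    | cons j l =>
      unfold glueT
      simp only [bind_time', getT_val, lengthT_val, lengthT_time, lookT_val, subT_time, subT_val,
        takeT_val, appendT_time]
      have h1 := getD_length_le W h i
      have h2 := getT_time W i []
      have h3 := lookT_time M i j hM hr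
      have h4 := hc i j
      have h5 := takeT_time ((W.getD i []).length - look M i j) (W.getD i [])
      have h6 : ((W.getD i []).take ((W.getD i []).length - look M i j)).length ≤ m := by
        rw [List.length_take]
        exact (min_le_right _ _).trans h1
      have h7 : ((i :: j :: l).length + 1) * (4 * m + c + 3 * n + 10) =
          ((j :: l).length + 1) * (4 * m + c + 3 * n + 10) + (4 * m + c + 3 * n + 10) := by
        simp only [List.length_cons]; ring
      rw [h7]
      omega

end Vale.Agent.P333.Ex
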